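import Mathlib

namespace Vale.Agent.Results.P061.ConstantFour

open Finset

/-- `cutSize H S` is the number of edges of the simple graph `H` with exactly one endpoint in `S`
(counted as pairs `(u, v)` with `u ∈ S`, `v ∉ S`, `u` adjacent to `v`). -/
noncomputable def cutSize {V : Type} (H : SimpleGraph V) (S : Finset V) : ℕ :=
  {p : V × V | p.1 ∈ S ∧ p.2 ∉ S ∧ H.Adj p.1 p.2}.ncard

theorem cutSize_top {V : Type} [Fintype V] [DecidableEq V] (S : Finset V) :
    cutSize (⊤ : SimpleGraph V) S = S.card * (Fintype.card V - S.card) := by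
  have h : {p : V × V | p.1 ∈ S ∧ p.2 ∉ S ∧ (⊤ : SimpleGraph V).Adj p.1 p.2}
      = ↑(S ×ˢ Sᶜ) := by
    ext ⟨u, v⟩
    simp only [Set.mem_ofPred_eq, SimpleGraph.top_adj, coe_product, Set.mem_prod, mem_coe,
      mem_compl]
    constructor
    · rintro ⟨h1, h2, _⟩; exact ⟨h1, h2⟩
    · rintro ⟨h1, h2⟩
      exact ⟨h1, h2, fun h => h2 (h ▸ h1)⟩
  rw [cutSize, h, Set.ncard_coe_finset, card_product, card_compl]

theorem cutSize_tree {V : Type} [Fintype V] [DecidableEq V] (T : SimpleGraph V) (hT : T.IsTree) :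
    ∃ S : Finset V, cutSize T S + 1 = Fintype.card V := by
  classical
  obtain ⟨c⟩ := hT.colorable_two
  set S : Finset V := univ.filter (fun v => c v = 0) with hS
  set R : Finset V := univ.filter (fun v => c v = 1) with hR
  have hbip : T.IsBipartiteWith (↑S) (↑R) := by
    constructor
    · rw [Finset.disjoint_coe, Finset.disjoint_left]
      intro v hv hv'
      simp only [hS, hR, mem_filter, mem_univ, true_and] at hv hv'
      rw [hv] at hv'
      exact absurd hv' (by decide)
    · intro v w hvw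
      have hne := c.valid hvw
      simp only [hS, hR, coe_filter, mem_univ, true_and, Set.mem_ofPred_eq]
      generalize c v = a at hne
      generalize c w = b at hne
      revert a b
      decide
  have hsum := SimpleGraph.isBipartiteWith_sum_degrees_eq_card_edges hbip
  have hcard := hT.card_edgeFinset
  refine ⟨S, ?_⟩
  have hcut : cutSize T S = ∑ v ∈ S, T.degree v := by
    have h : {p : V × V | p.1 ∈ S ∧ p.2 ∉ S ∧ T.Adj p.1 p.2}
        = ↑((S ×ˢ (univ : Finset V)).filter (fun p => T.Adj p.1 p.2)) := by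
      ext ⟨u, v⟩
      simp only [Set.mem_ofPred_eq, coe_filter, mem_product, mem_univ, and_true]
      constructor
      · rintro ⟨h1, _, h3⟩
        exact ⟨h1, h3⟩
      · rintro ⟨h1, h3⟩
        refine ⟨h1, ?_, h3⟩
        intro h2
        have hne := c.valid h3
        simp only [hS, mem_filter, mem_univ, true_and] at h1 h2
        exact hne (h1.trans h2.symm)
    rw [cutSize, h, Set.ncard_coe_finset, card_filter, sum_product]
    apply sum_congr rfl
    intro u _
    rw [← card_filter, ← SimpleGraph.card_neighborFinset_eq_degree,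
      SimpleGraph.neighborFinset_eq_filter]
  rw [hcut, hsum]
  exact hcard

theorem cutSize_empty {V : Type} (H : SimpleGraph V) : cutSize H ∅ = 0 := by
  simp [cutSize]

theorem cutSize_univ {V : Type} [Fintype V] (H : SimpleGraph V) : cutSize H univ = 0 := by
  simp [cutSize]

theorem key (k : ℕ) (hk : 1 ≤ k) :
    (∀ S : Finset (Fin (k + 1)), S.Nonempty → S ≠ univ →
      k ≤ cutSize (⊤ : SimpleGraph (Fin (k + 1))) S) ∧
    (∀ T : SimpleGraph (Fin (k + 1)), T.IsTree →
      ∃ S : Finset (Fin (k + 1)), S.Nonempty ∧ S ≠ univ ∧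
        4 * k * cutSize (⊤ : SimpleGraph (Fin (k + 1))) S ≤ (k + 1) ^ 2 * cutSize T S) := by
  constructor
  · intro S hne huniv
    rw [cutSize_top, Fintype.card_fin]
    have h1 : 1 ≤ S.card := hne.card_pos
    have h2 : S.card < k + 1 := by
      have := (card_lt_iff_ne_univ S).mpr huniv
      simpa using this
    obtain ⟨a, ha⟩ : ∃ a, S.card = a + 1 := ⟨S.card - 1, by omega⟩
    obtain ⟨b, hb⟩ : ∃ b, k = a + 1 + b := ⟨k - S.card, by omega⟩
    rw [ha, hb]
    have : a + 1 + b + 1 - (a + 1) = b + 1 := by omega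
    rw [this]
    nlinarith
  · intro T hT
    obtain ⟨S, hS⟩ := cutSize_tree T hT
    rw [Fintype.card_fin] at hS
    have hSk : cutSize T S = k := by omega
    refine ⟨S, ?_, ?_, ?_⟩
    · rw [nonempty_iff_ne_empty]
      rintro rfl
      rw [cutSize_empty] at hSk
      omega
    · rintro rfl
      rw [cutSize_univ] at hSk
      omega
    · rw [hSk, cutSize_top, Fintype.card_fin]
      have h2 : S.card ≤ k + 1 := by
        have := card_le_univ S
        simpa using this
      obtain ⟨b, hb⟩ : ∃ b, k + 1 = S.card + b := ⟨k + 1 - S.card, by omega⟩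
      have : k + 1 - S.card = b := by omega
      rw [this]
      generalize S.card = a at hb
      have h4 : 4 * (a * b) ≤ (k + 1) ^ 2 := by
        rw [hb]
        zify
        nlinarith [sq_nonneg ((a : ℤ) - b)]
      calc 4 * k * (a * b) = k * (4 * (a * b)) := by ring
        _ ≤ k * (k + 1) ^ 2 := Nat.mul_le_mul_left _ h4
        _ = (k + 1) ^ 2 * k := by ring

/-- For every `k ≥ 1` the complete graph `K_{k+1}` is `k`-edge-connected, and every spanning tree
`T` of it has a cut `S` with `|δ_T(S)| ≥ (4k/(k+1)^2) |δ_G(S)|`.  Hence a constant `C` such that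
every `K_{k+1}` has a `(C/k)`-thin spanning tree must satisfy `C ≥ 4`. -/
theorem result :
    (∀ k : ℕ, 1 ≤ k →
      (∀ S : Finset (Fin (k + 1)), S.Nonempty → S ≠ univ →
        k ≤ cutSize (⊤ : SimpleGraph (Fin (k + 1))) S) ∧
      (∀ T : SimpleGraph (Fin (k + 1)), T.IsTree →
        ∃ S : Finset (Fin (k + 1)), S.Nonempty ∧ S ≠ univ ∧
          4 * k * cutSize (⊤ : SimpleGraph (Fin (k + 1))) S ≤ (k + 1) ^ 2 * cutSize T S)) ∧
    (∀ C : ℝ,
      (∀ k : ℕ, 1 ≤ k → ∃ T : SimpleGraph (Fin (k + 1)), T.IsTree ∧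
        ∀ S : Finset (Fin (k + 1)), S.Nonempty → S ≠ univ →
          (cutSize T S : ℝ) ≤ C / k * cutSize (⊤ : SimpleGraph (Fin (k + 1))) S) →
      4 ≤ C) := by
  refine ⟨key, ?_⟩
  intro C hC
  by_contra hlt
  rw [not_le] at hlt
  have main : ∀ k : ℕ, 1 ≤ k → 4 * (k : ℝ) ^ 2 ≤ C * (k + 1) ^ 2 := by
    intro k hk
    obtain ⟨T, hT, hthin⟩ := hC k hk
    obtain ⟨hconn, htree⟩ := key k hk
    obtain ⟨S, hne, huniv, hS⟩ := htree T hT
    have h1 := hthin S hne huniv
    have h2 := hconn S hne huniv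
    have hkpos : (0 : ℝ) < k := by exact_mod_cast hk
    have hcpos : (0 : ℝ) < cutSize (⊤ : SimpleGraph (Fin (k + 1))) S := by
      have : 0 < cutSize (⊤ : SimpleGraph (Fin (k + 1))) S := by omega
      exact_mod_cast this
    have hS' : 4 * (k : ℝ) * cutSize (⊤ : SimpleGraph (Fin (k + 1))) S
        ≤ ((k : ℝ) + 1) ^ 2 * cutSize T S := by exact_mod_cast hS
    have h3 : 4 * (k : ℝ) * cutSize (⊤ : SimpleGraph (Fin (k + 1))) S
        ≤ ((k : ℝ) + 1) ^ 2 * (C / k * cutSize (⊤ : SimpleGraph (Fin (k + 1))) S) :=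
      le_trans hS' (mul_le_mul_of_nonneg_left h1 (by positivity))
    have h4 : 4 * (k : ℝ) ≤ ((k : ℝ) + 1) ^ 2 * (C / k) := by
      have : 4 * (k : ℝ) * cutSize (⊤ : SimpleGraph (Fin (k + 1))) S
          ≤ (((k : ℝ) + 1) ^ 2 * (C / k)) * cutSize (⊤ : SimpleGraph (Fin (k + 1))) S := by
        linarith
      exact le_of_mul_le_mul_right this hcpos
    have h5 : 4 * (k : ℝ) * k ≤ ((k : ℝ) + 1) ^ 2 * (C / k) * k :=
      mul_le_mul_of_nonneg_right h4 hkpos.le
    have h6 : ((k : ℝ) + 1) ^ 2 * (C / k) * k = C * ((k : ℝ) + 1) ^ 2 := by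
      field_simp
    rw [h6] at h5
    nlinarith
  obtain ⟨k, hk⟩ := exists_nat_gt (max 1 (3 * C / (4 - C)))
  have hk1 : (1 : ℝ) < k := lt_of_le_of_lt (le_max_left _ _) hk
  have hk2 : 3 * C / (4 - C) < k := lt_of_le_of_lt (le_max_right _ _) hk
  have hk1' : 1 ≤ k := by
    have : (1 : ℕ) < k := by exact_mod_cast hk1
    omega
  have h7 := main k hk1'
  have h8 : 3 * C < k * (4 - C) := by
    rwa [div_lt_iff₀ (by linarith)] at hk2
  by_cases hC0 : C ≤ 0
  · nlinarith [sq_nonneg ((k : ℝ) + 1)]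
  · rw [not_le] at hC0
    nlinarith

end Vale.Agent.Results.P061.ConstantFour
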